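import Vale.Agent.H1.LT.Dual
import Vale.Agent.H1.LT.Lower

/-!
Definitions for the proof of the sharp one-dimensional Lieb-Thirring inequality for all
`1/2 < γ < 3/2`.
-/

open MeasureTheory Matrix Set
open scoped ENNReal ComplexOrder

namespace Vale.LT2

/-- Complex `N × N` matrices. -/
abbrev Mat (N : ℕ) := Matrix (Fin N) (Fin N) ℂ

variable {N : ℕ}

/-- Trace pairing `Re tr (A B)`. -/
noncomputable def tp (A B : Mat N) : ℝ := ((A * B).trace).re

/-- `K_l = √(K² + l)`. -/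
noncomputable def Kl (K : Mat N) (l : ℝ) : Mat N := cfc (fun t : ℝ => √(t ^ 2 + l)) K

/-- `L_l = log (K_l + M) + log (K_l - M)`. -/
noncomputable def Ll (K M : Mat N) (l : ℝ) : Mat N :=
  cfc Real.log (Kl K l + M) + cfc Real.log (Kl K l - M)

/-- `L_l - log l`. -/
noncomputable def Dl (K M : Mat N) (l : ℝ) : Mat N := Ll K M l - ((Real.log l : ℝ) : ℂ) • 1

/-- `⟨𝒫_M, X⟩ = ∫_0^∞ l^(α-1) Re tr ((L_l - log l) X) dl`. -/
noncomputable def Pint (α : ℝ) (K M X : Mat N) : ℝ :=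
  ∫ l in Ioi (0 : ℝ), l ^ (α - 1) * tp (Dl K M l) X

/-- `J = ∫_0^∞ l^(α-1) log (1 + 1/l) dl`. -/
noncomputable def Jc (α : ℝ) : ℝ := ∫ l in Ioi (0 : ℝ), l ^ (α - 1) * Real.log (1 + 1 / l)

/-- `β = ∫_{-1}^1 (1 - t²)^α dt`. -/
noncomputable def bet (α : ℝ) : ℝ := ∫ t in (-1 : ℝ)..1, (1 - t ^ 2) ^ α

/-- `-K ≤ M ≤ K`, with `M` Hermitian. -/
structure Between (K M : Mat N) : Prop where
  herm : M.IsHermitian
  lower : (K + M).PosSemidef
  upper : (K - M).PosSemidef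

/-- An exact Riccati path from `K` to `-K` on `[-L, L]` for the potential `Q`. -/
structure RicPath (L : ℝ) (K : Mat N) (Q : ℝ → Mat N) (M : ℝ → Mat N) : Prop where
  posDef : K.PosDef
  between : ∀ x ∈ Icc (-L) L, Between K (M x)
  cont : ∀ i j, ContinuousOn (fun x => M x i j) (Icc (-L) L)
  deriv : ∀ x ∈ Ioo (-L) L, ∀ i j,
    HasDerivAt (fun y => M y i j) ((K * K - M x * M x - Q x) i j) x
  left : M (-L) = K
  right : M L = -K

end Vale.LT2
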