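import Vale.Agent.H1.LT2.Defs

/-!
Basic facts for the final assembly: continuity of the functional calculus.
-/

open MeasureTheory Matrix Set Topology
open scoped ENNReal ComplexOrder

namespace Vale.LT2

variable {N : ℕ}

section cont
open scoped Matrix.Norms.L2Operator

theorem spectrum_nonneg_of_posSemidef {A : Mat N} (hA : A.PosSemidef) :
    ∀ t ∈ spectrum ℝ A, 0 ≤ t := by
  intro t ht
  rw [hA.isHermitian.spectrum_real_eq_range_eigenvalues] at ht
  obtain ⟨i, rfl⟩ := ht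
  exact hA.eigenvalues_nonneg i

theorem spectrum_pos_of_posDef {A : Mat N} (hA : A.PosDef) :
    ∀ t ∈ spectrum ℝ A, 0 < t := by
  intro t ht
  rw [hA.isHermitian.spectrum_real_eq_range_eigenvalues] at ht
  obtain ⟨i, rfl⟩ := ht
  exact hA.eigenvalues_pos i

theorem continuousOn_cfc_psd (f : ℝ → ℝ) (hf : ContinuousOn f (Ici 0)) :
    ContinuousOn (fun A : Mat N => cfc f A) {A | A.PosSemidef} := by
  refine ContinuousOn.cfc (s := fun A : Mat N => Icc 0 (‖A‖ + 1)) f
    (fun _ _ => isCompact_Icc) continuousOn_id ?_ ?_ ?_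
  · intro A hA
    have h1 : ∀ᶠ B : Mat N in 𝓝 A, ‖B‖ < ‖A‖ + 1 :=
      (continuous_norm.tendsto A).eventually (gt_mem_nhds (by linarith))
    filter_upwards [nhdsWithin_le_nhds h1, self_mem_nhdsWithin] with B hB hB2 t ht
    refine ⟨spectrum_nonneg_of_posSemidef hB2 t ht, ?_⟩
    have h2 : ‖t‖ ≤ ‖B‖ * ‖(1 : Mat N)‖ := spectrum.norm_le_norm_mul_of_mem ht
    have h3 : ‖(1 : Mat N)‖ ≤ 1 := by
      rcases Nat.eq_zero_or_pos N with h | h
      · subst h
        have : (1 : Mat 0) = 0 := Subsingleton.elim _ _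
        rw [this, norm_zero]; norm_num
      · have : Nonempty (Fin N) := ⟨⟨0, h⟩⟩
        rw [CStarRing.norm_one]
    have h4 : ‖B‖ * ‖(1 : Mat N)‖ ≤ ‖B‖ := by
      calc ‖B‖ * ‖(1 : Mat N)‖ ≤ ‖B‖ * 1 := mul_le_mul_of_nonneg_left h3 (norm_nonneg _)
        _ = ‖B‖ := mul_one _
    have h5 := (Real.norm_eq_abs t ▸ h2 : |t| ≤ _)
    have := le_abs_self t
    linarith
  · intro A hA
    exact hA.isHermitian
  · intro A hA
    exact hf.mono (fun t ht => ht.1)

theorem continuousOn_cfc_posDef (f : ℝ → ℝ) (hf : ContinuousOn f (Ioi 0)) :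
    ContinuousOn (fun A : Mat N => cfc f A) {A | A.PosDef} := by
  refine ContinuousOn.cfc_of_mem_nhdsSet (s := Ioi 0) f ?_ continuousOn_id ?_ hf
  · refine isOpen_Ioi.mem_nhdsSet.2 (iUnion₂_subset fun A hA t ht => ?_)
    exact spectrum_pos_of_posDef hA t ht
  · intro A hA
    exact hA.isHermitian

end cont

end Vale.LT2
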