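import Vale.Agent.H1.LT2.FPow

/-!
Continuity and bounds for the potential `Q_K`.
-/

open MeasureTheory Matrix Set Topology
open scoped ENNReal ComplexOrder

namespace Vale.LT2.F

open Vale.LT (trPow IsH1 IsPotential NegSystem LTconst Lone Rmat trFun)

variable {N m : ℕ}

/-- the potential `Z_K(x) = (√S(K) R(x) √S(K))^{1/α}` -/
noncomputable def Zf (α : ℝ) (S : Mat N → Mat N) (u : Fin N → ℝ → Fin m → ℂ) (K : Mat N) (x : ℝ) :
    Mat N :=
  cfc (fun t : ℝ => t ^ (1 / α)) (Rm (lin (cfc Real.sqrt (S K)) u) x)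

theorem continuous_Rm {u du : Fin N → ℝ → Fin m → ℂ} (hu : ∀ j, IsH1 (u j) (du j)) :
    Continuous (fun x => Rm u x) := by
  refine continuous_pi fun j => continuous_pi fun k => ?_
  have : (fun x => Rm u x j k) = fun x => ∑ i, u j x i * star (u k x i) := by
    funext x; simp [Rm, dotProduct]
  show Continuous (fun x => Rm u x j k)
  rw [this]
  exact continuous_finsetSum _ fun i _ =>
    (Vale.LT.Dual.h1_cont ((hu j).memLp_deriv i) ((hu j).ftc i)).mul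
      (Vale.LT.Dual.h1_cont ((hu k).memLp_deriv i) ((hu k).ftc i)).star

theorem sqrt_herm (S : Mat N) : (cfc Real.sqrt S)ᴴ = cfc Real.sqrt S :=
  cfc_isHermitian Real.sqrt S

theorem Rm_zero_of {u : Fin N → ℝ → Fin m → ℂ} {x : ℝ} (h : ∀ j, u j x = 0) : Rm u x = 0 := by
  ext j k
  simp [Rm, h]

section norm
open scoped Matrix.Norms.L2Operator

theorem entry_le_norm (A : Mat N) (i j : Fin N) : ‖A i j‖ ≤ ‖A‖ := by
  have h1 := l2_opNorm_mulVec A (EuclideanSpace.single j (1 : ℂ))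
  have h2 : ‖(EuclideanSpace.single j (1 : ℂ))‖ = 1 := by simp
  rw [h2, mul_one] at h1
  refine le_trans ?_ h1
  have h3 := PiLp.norm_apply_le ((EuclideanSpace.equiv (Fin N) ℂ).symm
    (A *ᵥ (EuclideanSpace.single j (1 : ℂ)))) i
  refine le_trans (le_of_eq ?_) h3
  simp

theorem continuousOn_arg {S : Mat N → Mat N} (hSc : ContinuousOn S {K | K.PosSemidef})
    (hSpos : ∀ K, K.PosSemidef → (S K).PosDef)
    {u du : Fin N → ℝ → Fin m → ℂ} (hu : ∀ j, IsH1 (u j) (du j)) :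
    ContinuousOn (fun z : Mat N × ℝ => Rm (lin (cfc Real.sqrt (S z.1)) u) z.2)
      ({K | K.PosSemidef} ×ˢ univ) := by
  have h1 : ContinuousOn (fun z : Mat N × ℝ => cfc Real.sqrt (S z.1))
      ({K | K.PosSemidef} ×ˢ univ) := by
    have h2 : ContinuousOn (fun K : Mat N => cfc Real.sqrt (S K)) {K | K.PosSemidef} :=
      (continuousOn_cfc_psd Real.sqrt Real.continuous_sqrt.continuousOn).comp hSc
        (fun K hK => (hSpos K hK).posSemidef)
    exact h2.comp continuousOn_fst (fun z hz => hz.1)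
  have h3 : ContinuousOn (fun z : Mat N × ℝ => Rm u z.2) ({K | K.PosSemidef} ×ˢ univ) :=
    ((continuous_Rm hu).comp continuous_snd).continuousOn
  refine ((h1.mul h3).mul h1).congr (fun z _ => ?_)
  show Rm (lin (cfc Real.sqrt (S z.1)) u) z.2 = _
  rw [Rm_lin, sqrt_herm]
  rfl

theorem continuousOn_Zf (α : ℝ) (h0 : 0 < α) {S : Mat N → Mat N}
    (hSc : ContinuousOn S {K | K.PosSemidef})
    (hSpos : ∀ K, K.PosSemidef → (S K).PosDef)
    {u du : Fin N → ℝ → Fin m → ℂ} (hu : ∀ j, IsH1 (u j) (du j)) :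
    ContinuousOn (fun z : Mat N × ℝ => Zf α S u z.1 z.2) ({K | K.PosSemidef} ×ˢ univ) := by
  have hf : ContinuousOn (fun t : ℝ => t ^ (1 / α)) (Ici 0) :=
    (Real.continuous_rpow_const (by positivity)).continuousOn
  exact (continuousOn_cfc_psd _ hf).comp (continuousOn_arg hSc hSpos hu)
    (fun z _ => Rm_posSemidef _ _)

theorem bound_Rm {u du : Fin N → ℝ → Fin m → ℂ} (hu : ∀ j, IsH1 (u j) (du j)) (L : ℝ)
    (hsupp : ∀ j x, L ≤ |x| → u j x = 0) : ∃ B : ℝ, 0 ≤ B ∧ ∀ x, ‖Rm u x‖ ≤ B := by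
  obtain ⟨B, hB⟩ := (isCompact_Icc (a := -L) (b := L)).exists_bound_of_continuousOn
    (continuous_Rm hu).continuousOn
  refine ⟨max B 0, le_max_right _ _, fun x => ?_⟩
  by_cases hx : x ∈ Icc (-L) L
  · exact (hB x hx).trans (le_max_left _ _)
  · have h1 : L ≤ |x| := by
      by_contra h
      push Not at h
      exact hx ⟨(abs_lt.1 h).1.le, (abs_lt.1 h).2.le⟩
    rw [Rm_zero_of (fun j => hsupp j x h1), norm_zero]
    exact le_max_right _ _

theorem bound_Zf (α : ℝ) (h0 : 0 < α) {S : Mat N → Mat N}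
    (hSpos : ∀ K, K.PosSemidef → (S K).PosDef) (C : ℝ)
    (hSb : ∀ K, K.PosSemidef → ‖S K‖ ≤ C)
    {u du : Fin N → ℝ → Fin m → ℂ} (hu : ∀ j, IsH1 (u j) (du j)) (L : ℝ)
    (hsupp : ∀ j x, L ≤ |x| → u j x = 0) :
    ∃ B : ℝ, ∀ K : Mat N, K.PosSemidef → ∀ x i j, ‖Zf α S u K x i j‖ ≤ B := by
  obtain ⟨B, hB0, hB⟩ := bound_Rm hu L hsupp
  have hC0 : ∀ K : Mat N, K.PosSemidef → 0 ≤ C := fun K hK => (norm_nonneg _).trans (hSb K hK)
  refine ⟨(|C| * B) ^ (1 / α), fun K hK x i j => (entry_le_norm _ i j).trans ?_⟩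
  have hC : |C| = C := abs_of_nonneg (hC0 K hK)
  have h1 : ‖Rm (lin (cfc Real.sqrt (S K)) u) x‖ ≤ |C| * B := by
    have e1 : ‖cfc Real.sqrt (S K)‖ * ‖cfc Real.sqrt (S K)‖ ≤ |C| := by
      rw [← l2_opNorm_conjTranspose_mul_self, sqrt_herm,
        sqrt_mul_self _ (hSpos K hK).posSemidef, hC]
      exact hSb K hK
    rw [Rm_lin, sqrt_herm]
    calc ‖cfc Real.sqrt (S K) * Rm u x * cfc Real.sqrt (S K)‖
        ≤ ‖cfc Real.sqrt (S K)‖ * ‖Rm u x‖ * ‖cfc Real.sqrt (S K)‖ :=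
          (norm_mul_le _ _).trans (mul_le_mul_of_nonneg_right (norm_mul_le _ _) (norm_nonneg _))
      _ = (‖cfc Real.sqrt (S K)‖ * ‖cfc Real.sqrt (S K)‖) * ‖Rm u x‖ := by ring
      _ ≤ |C| * B := mul_le_mul e1 (hB x) (norm_nonneg _) (abs_nonneg _)
  unfold Zf
  refine norm_cfc_le (Real.rpow_nonneg (mul_nonneg (abs_nonneg _) hB0) _) (fun t ht => ?_)
  have ht0 := spectrum_nonneg_of_posSemidef (Rm_posSemidef _ _) t ht
  rw [Real.norm_of_nonneg (Real.rpow_nonneg ht0 _)]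
  refine Real.rpow_le_rpow ht0 ?_ (by positivity)
  have h2 : ‖t‖ ≤ ‖Rm (lin (cfc Real.sqrt (S K)) u) x‖ * ‖(1 : Mat N)‖ :=
    spectrum.norm_le_norm_mul_of_mem ht
  have h3 : ‖(1 : Mat N)‖ ≤ 1 := by
    rcases Nat.eq_zero_or_pos N with h | h
    · subst h
      have : (1 : Mat 0) = 0 := Subsingleton.elim _ _
      rw [this, norm_zero]; norm_num
    · have : Nonempty (Fin N) := ⟨⟨0, h⟩⟩
      rw [CStarRing.norm_one]
  have h4 := (Real.norm_eq_abs t ▸ h2 : |t| ≤ _)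
  calc t ≤ |t| := le_abs_self t
    _ ≤ ‖Rm (lin (cfc Real.sqrt (S K)) u) x‖ * ‖(1 : Mat N)‖ := h4
    _ ≤ ‖Rm (lin (cfc Real.sqrt (S K)) u) x‖ * 1 :=
        mul_le_mul_of_nonneg_left h3 (norm_nonneg _)
    _ ≤ |C| * B := by rw [mul_one]; exact h1

end norm

theorem Zf_posSemidef (α : ℝ) (S : Mat N → Mat N) (u : Fin N → ℝ → Fin m → ℂ) (K : Mat N) (x : ℝ) :
    (Zf α S u K x).PosSemidef :=
  cfc_posSemidef _ _ (Rm_posSemidef _ _).isHermitian
    (fun t ht => Real.rpow_nonneg (spectrum_nonneg_of_posSemidef (Rm_posSemidef _ _) t ht) _)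

end Vale.LT2.F
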