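import Vale.Agent.H1.LT2.FKer

/-!
The core inequality.
-/

open MeasureTheory Matrix Set Topology
open scoped ENNReal ComplexOrder

namespace Vale.LT2.F

open Vale.LT (trPow IsH1 IsPotential NegSystem LTconst Lone Rmat trFun)

variable {N m : ℕ}

section norm
open scoped Matrix.Norms.L2Operator

/-- existence of the Riccati path -/
theorem core_exists (α : ℝ) (h0 : 0 < α)
    (u du : Fin N → ℝ → Fin m → ℂ) (hu : ∀ j, IsH1 (u j) (du j))
    (L : ℝ) (hL : 0 < L) (hsupp : ∀ j x, L ≤ |x| → u j x = 0)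
    (horth : ∀ j k, (∫ x, u j x ⬝ᵥ star (u k x)) = if j = k then 1 else 0)
    (S : Mat N → Mat N) (hSc : ContinuousOn S {K | K.PosSemidef})
    (hSpos : ∀ K, K.PosSemidef → (S K).PosDef) (C : ℝ) (hSb : ∀ K, K.PosSemidef → ‖S K‖ ≤ C) :
    ∃ (K : Mat N) (M : ℝ → Mat N),
      RicPath L K (fun x => ((1 + 1 / α : ℝ) : ℂ) • Zf α S u K x) M := by
  have hZc := continuousOn_Zf α h0 hSc hSpos hu
  have hcpos : (0 : ℝ) < 1 + 1 / α := by positivity
  obtain ⟨B, hB⟩ := bound_Zf α h0 hSpos C hSb hu L hsupp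
  have hRint : ∀ j k, Integrable (fun x => Rm u x j k) :=
    integrable_Rm (fun j i => (hu j).memLp i)
  have hRone : (Matrix.of fun j k => ∫ x, Rm u x j k) = (1 : Mat N) := by
    ext j k
    show (∫ x, u j x ⬝ᵥ star (u k x)) = (1 : Mat N) j k
    rw [horth, Matrix.one_apply]
  refine exists_riccati L hL (fun K x => ((1 + 1 / α : ℝ) : ℂ) • Zf α S u K x)
    ((hZc.const_smul (((1 + 1 / α : ℝ) : ℂ))).congr (fun z _ => rfl))
    (fun K _ x => posSemidef_ofReal_smul hcpos.le (Zf_posSemidef α S u K x)) ((1 + 1 / α) * B)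
    ?_ ?_
  · intro K hK x i j
    simp only [Matrix.smul_apply, smul_eq_mul, norm_mul, Complex.norm_real,
      Real.norm_of_nonneg hcpos.le]
    exact mul_le_mul_of_nonneg_left (hB K hK x i j) hcpos.le
  · intro K hK w hw _
    exact ker_pos (1 + 1 / α) (1 / α) hcpos L hL (hSpos K hK) hsupp hRint hRone
      (continuous_Zf α h0 S hu K) w hw

theorem core (α : ℝ) (h0 : 0 < α) (h1 : α < 1) (W : ℝ → Matrix (Fin m) (Fin m) ℂ)
    (hW : IsPotential (1 + α) W) (u du : Fin N → ℝ → Fin m → ℂ) (hu : ∀ j, IsH1 (u j) (du j))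
    (L : ℝ) (hL : 0 < L) (hsupp : ∀ j x, L ≤ |x| → u j x = 0)
    (horth : ∀ j k, (∫ x, u j x ⬝ᵥ star (u k x)) = if j = k then 1 else 0)
    (S : Mat N → Mat N) (hSc : ContinuousOn S {K | K.PosSemidef})
    (hSpos : ∀ K, K.PosSemidef → (S K).PosDef) (C : ℝ) (hSb : ∀ K, K.PosSemidef → ‖S K‖ ≤ C) :
    ∃ K : Mat N, K.PosDef ∧
      bet α * trPow (2 * α + 1) K - tp (K * K) (S K) + tp (S K) (KKm W u du)
        ≤ aY α * ∫ x, trPow (1 + α) (W x) := by
  obtain ⟨K, M, hR⟩ := core_exists α h0 u du hu L hL hsupp horth S hSc hSpos C hSb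
  have hZc := continuousOn_Zf α h0 hSc hSpos hu
  have hRint : ∀ j k, Integrable (fun x => Rm u x j k) :=
    integrable_Rm (fun j i => (hu j).memLp i)
  have hRone : (Matrix.of fun j k => ∫ x, Rm u x j k) = (1 : Mat N) := by
    ext j k
    show (∫ x, u j x ⬝ᵥ star (u k x)) = (1 : Mat N) j k
    rw [horth, Matrix.one_apply]
  have hK := hR.posDef
  have hKp : K.PosSemidef := hK.posSemidef
  refine ⟨K, hK, ?_⟩
  set S0 := S K with hS0
  set T := cfc Real.sqrt S0 with hT
  have hTh : Tᴴ = T := sqrt_herm S0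
  have hTT : T * T = S0 := sqrt_mul_self _ (hSpos K hKp).posSemidef
  set v := lin T u with hv
  set dv := lin T du with hdv
  have hvH : ∀ j, IsH1 (v j) (dv j) := isH1_lin T hu
  have hvsupp : ∀ j x, L ≤ |x| → v j x = 0 := by
    intro j x hx
    funext i
    simp only [hv, lin, Pi.zero_apply]
    refine Finset.sum_eq_zero fun k _ => ?_
    rw [hsupp k x hx]
    simp
  set r : ℝ := 1 / α + 1 with hr
  have hr0 : 0 < r := by positivity
  -- `A0 = ∫ tr P^{q+1}`
  set A0 : ℝ := ∫ x, trPow r (Rm v x) with hA0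
  have hA0i : Integrable (fun x => trPow r (Rm v x)) := by
    refine integrable_of_supp (continuous_trPow_Rm r hr0 hvH) L (fun x hx => ?_)
    rw [Rm_zero_of (fun j => hvsupp j x hx), trPow_zero_mat r hr0]
  have hZpow : ∀ x, trPow (1 + α) (Zf α S u K x) = trPow r (Rm v x) := by
    intro x
    unfold Zf
    rw [trPow_cfc_pow _ _ _ (Rm_posSemidef _ _)]
    have : 1 / α * (1 + α) = r := by rw [hr]; field_simp
    rw [this]
  have hZcont : ∀ i j, Continuous (fun x => Zf α S u K x i j) := by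
    intro i j
    exact (continuous_Zf α h0 S hu K).matrix_elem i j
  -- (R)
  have hA := riccati_ineq α h0 h1 L hL K (Zf α S u K) M (Zf_posSemidef α S u K) hZcont hR
  simp only [hZpow] at hA
  rw [integral_eq_interval L hL (fun x hx => by
    rw [Rm_zero_of (fun j => hvsupp j x hx), trPow_zero_mat r hr0])] at hA
  -- (P)
  have hQcont : ∀ i j, Continuous (fun x => (((1 + 1 / α : ℝ) : ℂ) • Zf α S u K x) i j) := by
    intro i j
    simp only [Matrix.smul_apply, smul_eq_mul]
    exact continuous_const.mul (hZcont i j)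
  have hP := riccati_pos L hL K (fun x => ((1 + 1 / α : ℝ) : ℂ) • Zf α S u K x) M hQcont hR v dv hvH hvsupp
  have hP1 : ∀ x, tp (((1 + 1 / α : ℝ) : ℂ) • Zf α S u K x) (Matrix.of fun j k => v j x ⬝ᵥ star (v k x))
      = (1 + 1 / α) * trPow r (Rm v x) := by
    intro x
    show tp (((1 + 1 / α : ℝ) : ℂ) • Zf α S u K x) (Rm v x) = _
    rw [tp_smul_left]
    congr 1
    exact tp_cfc_pow_self (1 / α) (by positivity) (Rm v x) (Rm_posSemidef _ _)
  simp only [hP1] at hP
  rw [integral_const_mul, ← hA0] at hP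
  -- kinetic term
  have hdRint : ∀ j k, Integrable (fun x => Rm du x j k) :=
    integrable_Rm (fun j i => (hu j).memLp_deriv i)
  have hD0 : ∫ x, ∑ j, ∑ i, ‖dv j x i‖ ^ 2
      = tp S0 (Matrix.of fun j k => ∫ x, Rm du x j k) := by
    have e1 : ∀ x, ∑ j, ∑ i, ‖dv j x i‖ ^ 2 = tp S0 (Rm du x) := by
      intro x
      have e2 : ∑ j, ∑ i, ‖dv j x i‖ ^ 2 = tp 1 (Rm dv x) := by
        simp only [tp, one_mul, Matrix.trace, Matrix.diag, Rm, Matrix.of_apply, Complex.re_sum]
        refine Finset.sum_congr rfl fun j _ => ?_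
        simp only [dotProduct, Pi.star_apply, Complex.re_sum]
        refine Finset.sum_congr rfl fun i _ => ?_
        rw [RCLike.star_def, Complex.mul_conj, Complex.ofReal_re, Complex.normSq_eq_norm_sq]
      rw [e2, hdv, Rm_lin, tp_conj, hTh, mul_one, hTT]
    simp only [e1]
    exact (integral_tp S0 (fun x => Rm du x) hdRint).2
  have hK0 : ∫ x, tp (K * K) (Matrix.of fun j k => v j x ⬝ᵥ star (v k x)) = tp (K * K) S0 := by
    have e1 : ∀ x, tp (K * K) (Matrix.of fun j k => v j x ⬝ᵥ star (v k x))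
        = tp (T * (K * K) * T) (Rm u x) := by
      intro x
      show tp (K * K) (Rm v x) = _
      rw [hv, Rm_lin, tp_conj, hTh]
    simp only [e1]
    rw [(integral_tp (T * (K * K) * T) (fun x => Rm u x) hRint).2, hRone]
    unfold tp
    rw [mul_one, Matrix.trace_mul_comm, ← Matrix.mul_assoc, hTT, Matrix.trace_mul_comm]
  rw [hD0, hK0] at hP
  -- potential term
  have hWint := integrable_RW α h0 W hW hu
  have hWW : ∫ x, tp 1 (RW W v x) = tp S0 (Matrix.of fun j k => ∫ x, RW W u x j k) := by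
    have e1 : ∀ x, tp 1 (RW W v x) = tp S0 (RW W u x) := by
      intro x
      rw [hv, RW_lin, tp_conj, hTh, mul_one, hTT]
    simp only [e1]
    exact (integral_tp S0 (fun x => RW W u x) hWint).2
  have hWi : Integrable (fun x => tp 1 (RW W v x)) := by
    have e1 : (fun x => tp 1 (RW W v x)) = fun x => tp S0 (RW W u x) := by
      funext x
      rw [hv, RW_lin, tp_conj, hTh, mul_one, hTT]
    rw [e1]
    exact (integral_tp S0 (fun x => RW W u x) hWint).1
  have hY : ∫ x, tp 1 (RW W v x) ≤ aY α * (∫ x, trPow (1 + α) (W x)) + A0 := by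
    calc ∫ x, tp 1 (RW W v x)
        ≤ ∫ x, (aY α * trPow (1 + α) (W x) + trPow r (Rm v x)) :=
          integral_mono hWi ((hW.integrable.const_mul _).add hA0i)
            (fun x => young_point α h0 W hW.posSemidef v x)
      _ = _ := by
          rw [integral_add (hW.integrable.const_mul _) hA0i, integral_const_mul]
  -- combination
  have hKK : KKm W u du = (Matrix.of fun j k => ∫ x, RW W u x j k)
      - (Matrix.of fun j k => ∫ x, Rm du x j k) := by
    ext j k
    rfl
  rw [hKK, tp_sub_right, ← hWW]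
  have hA0' : (1 + 1 / α) * A0 = A0 + 1 / α * A0 := by ring
  linarith

end norm

end Vale.LT2.F
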