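import Vale.Agent.H1.LT2.FFinal

/-!
The sharp one-dimensional Lieb-Thirring constants for `1/2 < γ < 3/2`, all `m`.
-/

open MeasureTheory Matrix Set Topology
open scoped ENNReal ComplexOrder

namespace Vale.LT2.F

open Vale.LT

theorem Lone_pos (γ : ℝ) (h1 : 1 / 2 < γ) : 0 < Lone γ := by
  unfold Lone Lcl
  have h3 : 0 < Real.Gamma (γ + 1) := Real.Gamma_pos_of_pos (by linarith)
  have h4 : 0 < Real.Gamma (γ + 3 / 2) := Real.Gamma_pos_of_pos (by linarith)
  have h5 : 0 < (γ - 1 / 2) / (γ + 1 / 2) := div_pos (by linarith) (by linarith)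
  have h6 := Real.sqrt_pos.2 Real.pi_pos
  positivity

theorem LTconst_le_Lone (γ : ℝ) (h1 : 1 / 2 < γ) (h2 : γ < 3 / 2) (m : ℕ) :
    LTconst γ m ≤ ENNReal.ofReal (Lone γ) := by
  unfold LTconst
  refine iSup_le fun W => iSup_le fun hW => iSup_le fun hpos => ?_
  have h : trNeg γ W ≤ ENNReal.ofReal (Lone γ * ∫ x, trPow (γ + 1 / 2) (W x)) := by
    unfold trNeg
    refine iSup_le fun n => iSup_le fun S => ENNReal.ofReal_le_ofReal ?_
    exact system_of_compact γ h1 h2 (compactLT γ h1 h2) W hW S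
  rw [ENNReal.ofReal_mul (Lone_pos γ h1).le] at h
  exact ENNReal.div_le_of_le_mul h

theorem LTconst_eq_Lone (γ : ℝ) (h1 : 1 / 2 < γ) (h2 : γ < 3 / 2) (m : ℕ) (hm : 1 ≤ m) :
    LTconst γ m = ENNReal.ofReal (Lone γ) :=
  le_antisymm (LTconst_le_Lone γ h1 h2 m) (Lone_le_LTconst γ h1 m hm)

end Vale.LT2.F
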