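import Vale.Agent.H1.LT2.FCore

/-!
The Lieb-Thirring inequality for compactly supported systems, `1/2 < γ < 3/2`.
-/

open MeasureTheory Matrix Set Topology
open scoped ENNReal ComplexOrder

namespace Vale.LT2.F

open Vale.LT (trPow IsH1 IsPotential NegSystem LTconst Lone Rmat trFun)

variable {N m : ℕ}

theorem sq_eq_cfc (K : Mat N) (hK : K.PosSemidef) : K * K = cfc (fun t : ℝ => t ^ (2 : ℝ)) K := by
  have hK' : IsSelfAdjoint K := hK.isHermitian
  have h2 : K * K = cfc (fun t : ℝ => t) K * cfc (fun t : ℝ => t) K := by rw [cfc_id' ℝ K hK']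
  rw [h2, ← cfc_mul _ _ K (cont_spec _ _) (cont_spec _ _)]
  refine cfc_congr (fun t ht => ?_)
  show t * t = t ^ (2 : ℝ)
  rw [Real.rpow_two, sq]

theorem trPow_sq (γ : ℝ) (K : Mat N) (hK : K.PosSemidef) :
    trPow γ (K * K) = trPow (2 * γ) K := by
  rw [sq_eq_cfc K hK, trPow_cfc_pow _ _ _ hK]

theorem sq_posDef (K : Mat N) (hK : K.PosDef) : (K * K).PosDef := by
  rw [sq_eq_cfc K hK.posSemidef]
  exact cfc_posDef _ _ hK.isHermitian
    (fun t ht => Real.rpow_pos_of_pos (spectrum_pos_of_posDef hK t ht) _)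

theorem tr_cfc_mul (b s : ℝ) (A : Mat N) (hA : A.IsHermitian) :
    ((cfc (fun t : ℝ => b * t ^ s) A).trace).re = b * trPow s A := by
  rw [trPow_eq_cfc _ _ hA, cfc_const_mul b _ A (cont_spec _ _)]
  simp [Matrix.trace_smul]

/-- tangent line inequality, convex case -/
theorem tangent_conv (γ x y : ℝ) (hγ : 1 ≤ γ) (hx : 0 < x) (hy : 0 < y) :
    x ^ γ + γ * x ^ (γ - 1) * (y - x) ≤ y ^ γ := by
  have h1 := one_add_mul_self_le_rpow_one_add (s := y / x - 1)
    (by have := div_pos hy hx; linarith) hγ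
  have h2 : (1 + (y / x - 1)) = y / x := by ring
  rw [h2, Real.div_rpow hy.le hx.le] at h1
  have h3 : 0 < x ^ γ := Real.rpow_pos_of_pos hx _
  have h4 : x ^ (γ - 1) = x ^ γ / x := Real.rpow_sub_one hx.ne' γ
  rw [h4]
  have h5 : (1 + γ * (y / x - 1)) * x ^ γ ≤ y ^ γ / x ^ γ * x ^ γ :=
    mul_le_mul_of_nonneg_right h1 h3.le
  rw [div_mul_cancel₀ _ h3.ne'] at h5
  calc x ^ γ + γ * (x ^ γ / x) * (y - x) = (1 + γ * (y / x - 1)) * x ^ γ := by
        field_simp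
    _ ≤ y ^ γ := h5

/-- tangent line inequality, concave case -/
theorem tangent_conc (γ x y : ℝ) (h0 : 0 ≤ γ) (hγ : γ ≤ 1) (hx : 0 < x) (hy : 0 < y) :
    y ^ γ ≤ x ^ γ + γ * x ^ (γ - 1) * (y - x) := by
  have h1 := rpow_one_add_le_one_add_mul_self (s := y / x - 1)
    (by have := div_pos hy hx; linarith) h0 hγ
  have h2 : (1 + (y / x - 1)) = y / x := by ring
  rw [h2, Real.div_rpow hy.le hx.le] at h1
  have h3 : 0 < x ^ γ := Real.rpow_pos_of_pos hx _
  have h4 : x ^ (γ - 1) = x ^ γ / x := Real.rpow_sub_one hx.ne' γ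
  rw [h4]
  have h5 : y ^ γ / x ^ γ * x ^ γ ≤ (1 + γ * (y / x - 1)) * x ^ γ :=
    mul_le_mul_of_nonneg_right h1 h3.le
  rw [div_mul_cancel₀ _ h3.ne'] at h5
  calc y ^ γ ≤ (1 + γ * (y / x - 1)) * x ^ γ := h5
    _ = x ^ γ + γ * (x ^ γ / x) * (y - x) := by field_simp

theorem klein_conv (γ b : ℝ) (hb : 0 ≤ b) (hγ : 1 ≤ γ) (X Y : Mat N) (hX : X.PosDef)
    (hY : Y.PosDef) :
    b * trPow γ X + tp (cfc (fun t : ℝ => b * (γ * t ^ (γ - 1))) X) (Y - X) ≤ b * trPow γ Y := by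
  have h := klein (Ioi 0) (fun t => b * t ^ γ) (fun t => b * (γ * t ^ (γ - 1)))
    (fun x hx y hy => by
      have h1 := mul_le_mul_of_nonneg_left (tangent_conv γ x y hγ hx hy) hb
      show b * x ^ γ + b * (γ * x ^ (γ - 1)) * (y - x) ≤ b * y ^ γ
      calc b * x ^ γ + b * (γ * x ^ (γ - 1)) * (y - x)
          = b * (x ^ γ + γ * x ^ (γ - 1) * (y - x)) := by ring
        _ ≤ _ := h1) X Y hX.isHermitian hY.isHermitian
    (fun t ht => spectrum_pos_of_posDef hX t ht) (fun t ht => spectrum_pos_of_posDef hY t ht)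
  rwa [tr_cfc_mul b γ X hX.isHermitian, tr_cfc_mul b γ Y hY.isHermitian] at h

theorem klein_conc (γ b : ℝ) (hb : 0 ≤ b) (h0 : 0 ≤ γ) (hγ : γ ≤ 1) (X Y : Mat N)
    (hX : X.PosDef) (hY : Y.PosDef) :
    b * trPow γ Y ≤ b * trPow γ X
      + tp (cfc (fun t : ℝ => b * (γ * t ^ (γ - 1))) X) (Y - X) := by
  have h := klein (Ioi 0) (fun t => (-b) * t ^ γ) (fun t => -(b * (γ * t ^ (γ - 1))))
    (fun x hx y hy => by
      have h1 := mul_le_mul_of_nonneg_left (tangent_conc γ x y h0 hγ hx hy) hb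
      show (-b) * x ^ γ + -(b * (γ * x ^ (γ - 1))) * (y - x) ≤ (-b) * y ^ γ
      have e : b * (x ^ γ + γ * x ^ (γ - 1) * (y - x))
        = b * x ^ γ + b * (γ * x ^ (γ - 1)) * (y - x) := by ring
      rw [e] at h1
      linarith) X Y hX.isHermitian hY.isHermitian
    (fun t ht => spectrum_pos_of_posDef hX t ht) (fun t ht => spectrum_pos_of_posDef hY t ht)
  rw [tr_cfc_mul (-b) γ X hX.isHermitian, tr_cfc_mul (-b) γ Y hY.isHermitian, cfc_neg] at h
  unfold tp at h ⊢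
  rw [Matrix.neg_mul, Matrix.trace_neg, Complex.neg_re] at h
  linarith

section norm
open scoped Matrix.Norms.L2Operator

/-- case `γ ≥ 1` -/
theorem lt_compact_ge (γ : ℝ) (h1 : 1 ≤ γ) (h2 : γ < 3 / 2) (W : ℝ → Matrix (Fin m) (Fin m) ℂ)
    (hW : IsPotential (γ + 1 / 2) W) (u du : Fin N → ℝ → Fin m → ℂ)
    (hu : ∀ j, IsH1 (u j) (du j))
    (L : ℝ) (hL : 0 < L) (hsupp : ∀ j x, L ≤ |x| → u j x = 0)
    (horth : ∀ j k, (∫ x, u j x ⬝ᵥ star (u k x)) = if j = k then 1 else 0)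
    (hK : (KKm W u du).PosDef) :
    trPow γ (KKm W u du) ≤ Lone γ * ∫ x, trPow (γ + 1 / 2) (W x) := by
  set α := γ - 1 / 2 with hα
  have h0 : 0 < α := by rw [hα]; linarith
  have h1' : α < 1 := by rw [hα]; linarith
  have hb := bet_pos α h0
  have e1 : 1 + α = γ + 1 / 2 := by rw [hα]; ring
  have e2 : 2 * α + 1 = 2 * γ := by rw [hα]; ring
  set X := KKm W u du with hX
  set S0 : Mat N := cfc (fun t : ℝ => bet α * (γ * t ^ (γ - 1))) X with hS0
  have hS0p : S0.PosDef := cfc_posDef _ _ hK.isHermitian (fun t ht => by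
    have := spectrum_pos_of_posDef hK t ht
    have h3 := Real.rpow_pos_of_pos this (γ - 1)
    show 0 < bet α * (γ * t ^ (γ - 1))
    positivity)
  obtain ⟨K, hKp, hcore⟩ := core α h0 h1' W (by rw [e1]; exact hW) u du hu L hL hsupp horth
    (fun _ => S0) continuousOn_const (fun _ _ => hS0p) ‖S0‖ (fun _ _ => le_rfl)
  rw [← hX, e1, e2] at hcore
  have hkl := klein_conv γ (bet α) hb.le h1 X (K * K) hK (sq_posDef K hKp)
  rw [← hS0, trPow_sq γ K hKp.posSemidef, tp_sub_right] at hkl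
  have hcomm : tp (K * K) S0 = tp S0 (K * K) := by
    unfold tp; rw [Matrix.trace_mul_comm]
  rw [hcomm] at hcore
  have hfin : bet α * trPow γ X ≤ aY α * ∫ x, trPow (γ + 1 / 2) (W x) := by linarith
  have hLone := Lone_eq γ (by linarith) h2
  have haY : aY α = Lone γ * bet α := by
    rw [hLone]
    unfold aY
    rw [e1]
  rw [haY] at hfin
  have : bet α * trPow γ X ≤ bet α * (Lone γ * ∫ x, trPow (γ + 1 / 2) (W x)) := by
    calc _ ≤ _ := hfin
      _ = _ := by ring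
  exact le_of_mul_le_mul_left this hb

/-- `∑ (k²+δ)^γ` -/
theorem tr_shift (γ δ : ℝ) (h0 : 0 < γ) (hγ : γ ≤ 1) (hδ : 0 < δ) (K : Mat N)
    (hK : K.PosSemidef) :
    trPow γ (cfc (fun t : ℝ => t ^ (2 : ℝ) + δ) K) ≤ trPow (2 * γ) K + N * δ ^ γ := by
  have hK' : IsSelfAdjoint K := hK.isHermitian
  have e1 : ((cfc (fun t : ℝ => t ^ (2 * γ) + δ ^ γ) K).trace).re
      = trPow (2 * γ) K + N * δ ^ γ := by
    rw [cfc_add_const (δ ^ γ) (fun t : ℝ => t ^ (2 * γ)) K (cont_spec _ _) hK',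
      Matrix.trace_add, Complex.add_re, trPow_eq_cfc _ _ hK.isHermitian]
    congr 1
    rw [Algebra.algebraMap_eq_smul_one, Matrix.trace_smul, Matrix.trace_one]
    simp [mul_comm]
  rw [← e1, trPow_eq_cfc _ _ (cfc_isHermitian _ _)]
  have h1 := cfc_comp' (fun t : ℝ => t ^ γ) (fun t : ℝ => t ^ (2 : ℝ) + δ) K
    (by rw [← cfc_map_spectrum (fun t : ℝ => t ^ (2 : ℝ) + δ) K hK' (cont_spec _ _)]
        exact cont_spec _ _) (cont_spec _ _) hK'
  rw [← h1]
  have h2 : (cfc (fun t : ℝ => t ^ (2 * γ) + δ ^ γ) K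
      - cfc (fun t : ℝ => (t ^ (2 : ℝ) + δ) ^ γ) K).PosSemidef := by
    rw [← cfc_sub _ _ K (cont_spec _ _) (cont_spec _ _)]
    refine cfc_posSemidef _ _ hK.isHermitian (fun t ht => ?_)
    have ht0 := spectrum_nonneg_of_posSemidef hK t ht
    have h3 : (t ^ (2 : ℝ) + δ) ^ γ ≤ (t ^ (2 : ℝ)) ^ γ + δ ^ γ := by
      have := NNReal.rpow_add_le_add_rpow ⟨t ^ (2 : ℝ), Real.rpow_nonneg ht0 2⟩ ⟨δ, hδ.le⟩
        h0.le hγ
      exact_mod_cast this
    rw [← Real.rpow_mul ht0] at h3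
    show 0 ≤ t ^ (2 * γ) + δ ^ γ - (t ^ (2 : ℝ) + δ) ^ γ
    linarith
  have h3 := (Complex.le_def.1 h2.trace_nonneg).1
  rw [Matrix.trace_sub, Complex.sub_re, Complex.zero_re] at h3
  linarith

theorem shift_eq (δ : ℝ) (K : Mat N) (hK : K.PosSemidef) :
    cfc (fun t : ℝ => t ^ (2 : ℝ) + δ) K = K * K + ((δ : ℝ) : ℂ) • (1 : Mat N) := by
  have hK' : IsSelfAdjoint K := hK.isHermitian
  rw [cfc_add_const δ (fun t : ℝ => t ^ (2 : ℝ)) K (cont_spec _ _) hK', ← sq_eq_cfc K hK]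
  congr 1
  rw [Algebra.algebraMap_eq_smul_one]
  ext i j
  simp

/-- case `γ < 1`, with error -/
theorem lt_compact_lt_aux (γ : ℝ) (h1 : 1 / 2 < γ) (h2 : γ < 1)
    (W : ℝ → Matrix (Fin m) (Fin m) ℂ)
    (hW : IsPotential (γ + 1 / 2) W) (u du : Fin N → ℝ → Fin m → ℂ)
    (hu : ∀ j, IsH1 (u j) (du j))
    (L : ℝ) (hL : 0 < L) (hsupp : ∀ j x, L ≤ |x| → u j x = 0)
    (horth : ∀ j k, (∫ x, u j x ⬝ᵥ star (u k x)) = if j = k then 1 else 0)
    (hK : (KKm W u du).PosDef) (δ : ℝ) (hδ : 0 < δ) :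
    trPow γ (KKm W u du) ≤ (Lone γ * ∫ x, trPow (γ + 1 / 2) (W x)) + N * δ ^ γ := by
  set α := γ - 1 / 2 with hα
  have h0 : 0 < α := by rw [hα]; linarith
  have h1' : α < 1 := by rw [hα]; linarith
  have hb := bet_pos α h0
  have e1 : 1 + α = γ + 1 / 2 := by rw [hα]; ring
  have e2 : 2 * α + 1 = 2 * γ := by rw [hα]; ring
  set X := KKm W u du with hX
  have hfc : Continuous (fun t : ℝ => bet α * (γ * (t ^ (2 : ℝ) + δ) ^ (γ - 1))) := by
    have h3 : Continuous (fun t : ℝ => t ^ (2 : ℝ) + δ) := by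
      simp only [Real.rpow_two]
      fun_prop
    refine continuous_const.mul (continuous_const.mul (h3.rpow_const (fun t => Or.inl ?_)))
    have : 0 ≤ t ^ (2 : ℝ) := by rw [Real.rpow_two]; positivity
    show t ^ (2 : ℝ) + δ ≠ 0
    positivity
  have hval : ∀ t : ℝ, 0 < bet α * (γ * (t ^ (2 : ℝ) + δ) ^ (γ - 1)) := by
    intro t
    have : 0 ≤ t ^ (2 : ℝ) := by rw [Real.rpow_two]; positivity
    have h3 : 0 < (t ^ (2 : ℝ) + δ) ^ (γ - 1) := Real.rpow_pos_of_pos (by positivity) _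
    positivity
  set S : Mat N → Mat N :=
    fun K => cfc (fun t : ℝ => bet α * (γ * (t ^ (2 : ℝ) + δ) ^ (γ - 1))) K with hS
  obtain ⟨K, hKp, hcore⟩ := core α h0 h1' W (by rw [e1]; exact hW) u du hu L hL hsupp horth
    S (continuousOn_cfc_psd _ hfc.continuousOn)
    (fun K hK => cfc_posDef _ _ hK.isHermitian (fun t _ => hval t))
    (bet α * (γ * δ ^ (γ - 1)))
    (fun K hK => by
      refine norm_cfc_le (by positivity) (fun t _ => ?_)
      rw [Real.norm_of_nonneg (hval t).le]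
      have h3 : (t ^ (2 : ℝ) + δ) ^ (γ - 1) ≤ δ ^ (γ - 1) := by
        have : 0 ≤ t ^ (2 : ℝ) := by rw [Real.rpow_two]; positivity
        exact Real.rpow_le_rpow_of_nonpos hδ (by linarith) (by linarith)
      gcongr)
  rw [← hX, e1, e2] at hcore
  have hKs := hKp.posSemidef
  have hK' : IsSelfAdjoint K := hKs.isHermitian
  set Y : Mat N := cfc (fun t : ℝ => t ^ (2 : ℝ) + δ) K with hY
  have hYp : Y.PosDef := cfc_posDef _ _ hKs.isHermitian (fun t _ => by
    have : 0 ≤ t ^ (2 : ℝ) := by rw [Real.rpow_two]; positivity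
    show 0 < t ^ (2 : ℝ) + δ
    positivity)
  have hSY : cfc (fun t : ℝ => bet α * (γ * t ^ (γ - 1))) Y = S K := by
    rw [hY, hS]
    exact (cfc_comp' (fun t : ℝ => bet α * (γ * t ^ (γ - 1))) (fun t : ℝ => t ^ (2 : ℝ) + δ) K
      (by rw [← cfc_map_spectrum (fun t : ℝ => t ^ (2 : ℝ) + δ) K hK' (cont_spec _ _)]
          exact cont_spec _ _) (cont_spec _ _) hK').symm
  have hkl := klein_conc γ (bet α) hb.le (by linarith) h2.le Y X hYp hK
  rw [hSY, tp_sub_right, hY, shift_eq δ K hKs] at hkl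
  rw [← shift_eq δ K hKs] at hkl
  have hsh := tr_shift γ δ (by linarith) h2.le hδ K hKs
  have hSp : (S K).PosDef := cfc_posDef _ _ hKs.isHermitian (fun t _ => hval t)
  have hSY2 : tp (S K) (cfc (fun t : ℝ => t ^ (2 : ℝ) + δ) K)
      = tp (S K) (K * K) + δ * ((S K).trace).re := by
    rw [shift_eq δ K hKs]
    unfold tp
    rw [Matrix.mul_add, Matrix.trace_add, Complex.add_re, Matrix.mul_smul, Matrix.trace_smul,
      Matrix.mul_one, smul_eq_mul, Complex.re_ofReal_mul]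
  have hStr : 0 ≤ ((S K).trace).re := (Complex.le_def.1 hSp.posSemidef.trace_nonneg).1
  have hcomm : tp (K * K) (S K) = tp (S K) (K * K) := by
    unfold tp; rw [Matrix.trace_mul_comm]
  rw [hcomm] at hcore
  rw [hSY2] at hkl
  have hsh' := mul_le_mul_of_nonneg_left hsh hb.le
  have hδt : 0 ≤ δ * ((S K).trace).re := mul_nonneg hδ.le hStr
  have hfin : bet α * trPow γ X
      ≤ aY α * (∫ x, trPow (γ + 1 / 2) (W x)) + bet α * (N * δ ^ γ) := by
    have e3 : bet α * (trPow (2 * γ) K + N * δ ^ γ)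
      = bet α * trPow (2 * γ) K + bet α * (N * δ ^ γ) := by ring
    rw [e3] at hsh'
    linarith
  have hLone := Lone_eq γ h1 (by linarith)
  have haY : aY α = Lone γ * bet α := by
    rw [hLone]
    unfold aY
    rw [e1]
  rw [haY] at hfin
  have : bet α * trPow γ X
      ≤ bet α * ((Lone γ * ∫ x, trPow (γ + 1 / 2) (W x)) + N * δ ^ γ) := by
    calc _ ≤ _ := hfin
      _ = _ := by ring
  exact le_of_mul_le_mul_left this hb

end norm

theorem lt_compact_lt (γ : ℝ) (h1 : 1 / 2 < γ) (h2 : γ < 1)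
    (W : ℝ → Matrix (Fin m) (Fin m) ℂ)
    (hW : IsPotential (γ + 1 / 2) W) (u du : Fin N → ℝ → Fin m → ℂ)
    (hu : ∀ j, IsH1 (u j) (du j))
    (L : ℝ) (hL : 0 < L) (hsupp : ∀ j x, L ≤ |x| → u j x = 0)
    (horth : ∀ j k, (∫ x, u j x ⬝ᵥ star (u k x)) = if j = k then 1 else 0)
    (hK : (KKm W u du).PosDef) :
    trPow γ (KKm W u du) ≤ Lone γ * ∫ x, trPow (γ + 1 / 2) (W x) := by
  have hlim : Filter.Tendsto (fun δ : ℝ => (Lone γ * ∫ x, trPow (γ + 1 / 2) (W x)) + N * δ ^ γ)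
      (𝓝[>] 0) (𝓝 ((Lone γ * ∫ x, trPow (γ + 1 / 2) (W x)) + N * (0 : ℝ) ^ γ)) := by
    refine Filter.Tendsto.mono_left ?_ nhdsWithin_le_nhds
    have : Continuous (fun δ : ℝ => (Lone γ * ∫ x, trPow (γ + 1 / 2) (W x)) + N * δ ^ γ) :=
      continuous_const.add (continuous_const.mul (Real.continuous_rpow_const (by linarith)))
    exact this.tendsto 0
  rw [Real.zero_rpow (by linarith), mul_zero, add_zero] at hlim
  refine ge_of_tendsto hlim ?_
  filter_upwards [self_mem_nhdsWithin] with δ hδ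
  exact lt_compact_lt_aux γ h1 h2 W hW u du hu L hL hsupp horth hK δ hδ

/-- the sharp inequality for compactly supported systems -/
theorem compactLT (γ : ℝ) (h1 : 1 / 2 < γ) (h2 : γ < 3 / 2) : CompactLT γ := by
  intro N m W hW u du hu L hL hsupp horth hK
  rcases le_or_gt 1 γ with h | h
  · exact lt_compact_ge γ h h2 W hW u du hu L hL hsupp horth hK
  · exact lt_compact_lt γ h1 h W hW u du hu L hL hsupp horth hK

end Vale.LT2.F
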