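import Vale.Agent.H1.LT2.FYoung

/-!
Auxiliary lemmas for the core inequality, in particular the positivity of the potential on the
kernel.
-/

open MeasureTheory Matrix Set Topology
open scoped ENNReal ComplexOrder

namespace Vale.LT2.F

open Vale.LT (trPow IsH1 IsPotential NegSystem LTconst Lone Rmat trFun)

variable {N m : ℕ}

theorem trPow_nonneg (s : ℝ) {A : Mat N} (hA : A.PosSemidef) : 0 ≤ trPow s A := by
  rw [Vale.LT.trPow_eq_trFun, Vale.LT.trFun_of_isHermitian _ hA.isHermitian]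
  exact Finset.sum_nonneg fun i _ => Real.rpow_nonneg (hA.eigenvalues_nonneg i) _

theorem trPow_zero_mat (s : ℝ) (hs : 0 < s) : trPow s (0 : Mat N) = 0 := by
  rw [trPow_eq_cfc _ _ (Matrix.isHermitian_zero)]
  have h2 : cfc (fun t : ℝ => t ^ s) (0 : Mat N) = 0 := by
    rw [cfc_apply_zero]
    simp [Real.zero_rpow hs.ne']
  rw [h2]
  simp

theorem continuous_trPow_Rm (s : ℝ) (hs : 0 < s) {u du : Fin N → ℝ → Fin m → ℂ}
    (hu : ∀ j, IsH1 (u j) (du j)) : Continuous (fun x => trPow s (Rm u x)) := by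
  have h1 : ContinuousOn (fun A : Mat N => cfc (fun t : ℝ => t ^ s) A) {A | A.PosSemidef} :=
    continuousOn_cfc_psd _ (Real.continuous_rpow_const hs.le).continuousOn
  have h2 : Continuous (fun x => cfc (fun t : ℝ => t ^ s) (Rm u x)) :=
    h1.comp_continuous (continuous_Rm hu) (fun x => Rm_posSemidef u x)
  have h3 : (fun x => trPow s (Rm u x))
      = fun x => ((cfc (fun t : ℝ => t ^ s) (Rm u x)).trace).re := by
    funext x
    exact trPow_eq_cfc _ _ (Rm_posSemidef u x).isHermitian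
  rw [h3]
  exact Complex.continuous_re.comp h2.matrix_trace

theorem mem_Icc_or {L x : ℝ} : x ∈ Icc (-L) L ∨ L ≤ |x| := by
  by_cases h : L ≤ |x|
  · exact Or.inr h
  · push Not at h
    exact Or.inl ⟨(abs_lt.1 h).1.le, (abs_lt.1 h).2.le⟩

theorem integral_eq_interval {f : ℝ → ℝ} (L : ℝ) (hL : 0 < L)
    (hf : ∀ x, L ≤ |x| → f x = 0) : ∫ x in (-L)..L, f x = ∫ x, f x := by
  rw [intervalIntegral.integral_of_le (by linarith)]
  refine setIntegral_eq_integral_of_forall_compl_eq_zero (fun x hx => hf x ?_)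
  by_contra h
  push Not at h
  exact hx ⟨(abs_lt.1 h).1, (abs_lt.1 h).2.le⟩

theorem integrable_of_supp {f : ℝ → ℝ} (hc : Continuous f) (L : ℝ)
    (hf : ∀ x, L ≤ |x| → f x = 0) : Integrable f := by
  refine hc.integrable_of_hasCompactSupport ?_
  refine HasCompactSupport.intro (K := Icc (-L) L) isCompact_Icc (fun x hx => hf x ?_)
  exact (mem_Icc_or.resolve_left hx)

/-- the matrix `K_{jk} = ∫ u_j · conj(W u_k) - ∫ u_j' · conj u_k'` -/
noncomputable def KKm (W : ℝ → Matrix (Fin m) (Fin m) ℂ) (u du : Fin N → ℝ → Fin m → ℂ) : Mat N :=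
  Matrix.of fun j k => (∫ x, u j x ⬝ᵥ star ((W x).mulVec (u k x)))
      - ∫ x, du j x ⬝ᵥ star (du k x)

theorem posSemidef_ofReal_smul {c : ℝ} (hc : 0 ≤ c) {A : Mat N} (hA : A.PosSemidef) :
    ((c : ℂ) • A).PosSemidef := by
  have h := hA.smul hc
  have e : (c : ℂ) • A = c • A := by
    ext i j
    simp
  rw [e]
  exact h

theorem quad_smul {c : ℝ} (A : Mat N) (w : Fin N → ℂ) :
    (star w ⬝ᵥ ((c : ℂ) • A).mulVec w).re = c * (star w ⬝ᵥ A.mulVec w).re := by
  rw [Matrix.smul_mulVec, dotProduct_smul, smul_eq_mul, Complex.re_ofReal_mul]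

theorem quad_re_nonneg {A : Mat N} (hA : A.PosSemidef) (w : Fin N → ℂ) :
    0 ≤ (star w ⬝ᵥ A.mulVec w).re := (Complex.le_def.1 (hA.dotProduct_mulVec_nonneg w)).1

theorem mulVec_zero_of_quad_re {A : Mat N} (hA : A.PosSemidef) (w : Fin N → ℂ)
    (h : (star w ⬝ᵥ A.mulVec w).re = 0) : A.mulVec w = 0 := by
  have h4 : 0 ≤ star w ⬝ᵥ A.mulVec w := hA.dotProduct_mulVec_nonneg w
  have h7 := (Complex.le_def.1 h4).2
  have h3 : star w ⬝ᵥ A.mulVec w = 0 := Complex.ext h (by simpa using h7.symm)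
  exact (hA.dotProduct_mulVec_zero_iff w).1 h3

/-- `P w = 0` if `P^q w = 0` -/
theorem mulVec_zero_of_rpow (q : ℝ) {P : Mat N} (hPp : P.PosSemidef) (w : Fin N → ℂ)
    (h : (cfc (fun t : ℝ => t ^ q) P).mulVec w = 0) : P.mulVec w = 0 := by
  have h10 : P = cfc (fun t : ℝ => if t = 0 then 0 else t / t ^ q) P
      * cfc (fun t : ℝ => t ^ q) P := by
    have hP' : IsSelfAdjoint P := hPp.isHermitian
    rw [← cfc_mul _ _ P (cont_spec _ _) (cont_spec _ _)]
    conv_lhs => rw [← cfc_id' ℝ P hP']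
    refine cfc_congr (fun t ht => ?_)
    have ht0 := spectrum_nonneg_of_posSemidef hPp t ht
    show t = (if t = 0 then 0 else t / t ^ q) * t ^ q
    split_ifs with h
    · rw [h, zero_mul]
    · have : 0 < t := lt_of_le_of_ne ht0 (Ne.symm h)
      have h11 : t ^ q ≠ 0 := (Real.rpow_pos_of_pos this _).ne'
      field_simp
  rw [h10, ← Matrix.mulVec_mulVec, h, Matrix.mulVec_zero]

theorem integral_quad (F : ℝ → Mat N) (hF : ∀ j k, Integrable (fun x => F x j k))
    (y : Fin N → ℂ) :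
    star y ⬝ᵥ (Matrix.of fun j k => ∫ x, F x j k : Mat N).mulVec y
      = ∫ x, star y ⬝ᵥ (F x).mulVec y := by
  simp only [dotProduct, Matrix.mulVec, Matrix.of_apply]
  rw [integral_finsetSum]
  · refine Finset.sum_congr rfl fun j _ => ?_
    rw [integral_const_mul, integral_finsetSum]
    · congr 1
      refine Finset.sum_congr rfl fun k _ => ?_
      rw [integral_mul_const]
    · exact fun k _ => (hF j k).mul_const _
  · exact fun j _ => (integrable_finsetSum _ fun k _ => (hF j k).mul_const _).const_mul _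

theorem continuous_Zf (α : ℝ) (h0 : 0 < α) (S : Mat N → Mat N) {u du : Fin N → ℝ → Fin m → ℂ}
    (hu : ∀ j, IsH1 (u j) (du j)) (K : Mat N) : Continuous (Zf α S u K) := by
  have hf : ContinuousOn (fun t : ℝ => t ^ (1 / α)) (Ici 0) :=
    (Real.continuous_rpow_const (by positivity)).continuousOn
  have h1 : Continuous (fun x => Rm (lin (cfc Real.sqrt (S K)) u) x) :=
    continuous_Rm (isH1_lin _ hu)
  exact ContinuousOn.comp_continuous (continuousOn_cfc_psd _ hf) h1 (fun x => Rm_posSemidef _ _)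

/-- if `Z(x) w = 0` for all `x` then `w = 0` -/
theorem ker_zero (q : ℝ) (L : ℝ) {S0 : Mat N} (hS0 : S0.PosDef) {u : Fin N → ℝ → Fin m → ℂ}
    (hsupp : ∀ j x, L ≤ |x| → u j x = 0)
    (hRint : ∀ j k, Integrable (fun x => Rm u x j k))
    (hRone : (Matrix.of fun j k => ∫ x, Rm u x j k) = (1 : Mat N))
    (w : Fin N → ℂ)
    (hz : ∀ x ∈ Icc (-L) L,
      (cfc (fun t : ℝ => t ^ q) (Rm (lin (cfc Real.sqrt S0) u) x)).mulVec w = 0) : w = 0 := by
  set T := cfc Real.sqrt S0 with hT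
  set y : Fin N → ℂ := Tᴴ.mulVec w with hy
  have hRy : ∀ x, star y ⬝ᵥ (Rm u x).mulVec y = 0 := by
    intro x
    rcases mem_Icc_or (L := L) (x := x) with hx | hx
    · have h9 : (Rm (lin T u) x).mulVec w = 0 :=
        mulVec_zero_of_rpow q (Rm_posSemidef _ _) w (hz x hx)
      have h13 : star w ⬝ᵥ (Rm (lin T u) x).mulVec w = 0 := by rw [h9, dotProduct_zero]
      rw [Rm_lin] at h13
      rw [← h13, hy]
      rw [Matrix.star_mulVec, Matrix.conjTranspose_conjTranspose, ← Matrix.mulVec_mulVec,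
        ← Matrix.mulVec_mulVec, ← Matrix.dotProduct_mulVec]
    · rw [Rm_zero_of (fun j => hsupp j x hx)]
      simp
  have hy0 : star y ⬝ᵥ y = 0 := by
    have h2 := integral_quad (fun x => Rm u x) hRint y
    rw [hRone, Matrix.one_mulVec] at h2
    rw [h2]
    simp [hRy]
  have hyz : y = 0 := dotProduct_star_self_eq_zero.1 hy0
  have hTT : (T * Tᴴ).mulVec w = 0 := by
    rw [← Matrix.mulVec_mulVec, ← hy, hyz, Matrix.mulVec_zero]
  rw [sqrt_herm, sqrt_mul_self _ hS0.posSemidef] at hTT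
  by_contra hw
  have h14 : 0 < star w ⬝ᵥ S0.mulVec w := hS0.dotProduct_mulVec_pos hw
  rw [hTT, dotProduct_zero] at h14
  exact lt_irrefl _ h14

theorem ker_pos (c q : ℝ) (hc : 0 < c) (L : ℝ) (hL : 0 < L) {S0 : Mat N} (hS0 : S0.PosDef)
    {u : Fin N → ℝ → Fin m → ℂ}
    (hsupp : ∀ j x, L ≤ |x| → u j x = 0)
    (hRint : ∀ j k, Integrable (fun x => Rm u x j k))
    (hRone : (Matrix.of fun j k => ∫ x, Rm u x j k) = (1 : Mat N))
    (hcont : Continuous (fun x =>
      cfc (fun t : ℝ => t ^ q) (Rm (lin (cfc Real.sqrt S0) u) x)))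
    (w : Fin N → ℂ) (hw : w ≠ 0) :
    0 < ∫ x in (-L)..L, (star w ⬝ᵥ
      ((c : ℂ) • cfc (fun t : ℝ => t ^ q) (Rm (lin (cfc Real.sqrt S0) u) x)).mulVec w).re := by
  set Z : ℝ → Mat N := fun x => cfc (fun t : ℝ => t ^ q) (Rm (lin (cfc Real.sqrt S0) u) x) with hZ
  have hZp : ∀ x, (Z x).PosSemidef := fun x =>
    cfc_posSemidef _ _ (Rm_posSemidef _ _).isHermitian
      (fun t ht => Real.rpow_nonneg (spectrum_nonneg_of_posSemidef (Rm_posSemidef _ _) t ht) _)
  show 0 < ∫ x in (-L)..L, (star w ⬝ᵥ ((c : ℂ) • Z x).mulVec w).re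
  simp only [quad_smul]
  have hcont2 : Continuous (fun x => c * (star w ⬝ᵥ (Z x).mulVec w).re) :=
    (Complex.continuous_re.comp
      (continuous_const.dotProduct (hcont.matrix_mulVec continuous_const))).const_smul c
  have hnn : ∀ x, 0 ≤ c * (star w ⬝ᵥ (Z x).mulVec w).re := fun x =>
    mul_nonneg hc.le (quad_re_nonneg (hZp x) w)
  by_contra hcon
  push Not at hcon
  -- vanishing everywhere on the interval
  have hz : ∀ x ∈ Icc (-L) L, (star w ⬝ᵥ (Z x).mulVec w).re = 0 := by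
    intro x hx
    by_contra hne
    have hne' : c * (star w ⬝ᵥ (Z x).mulVec w).re ≠ 0 := mul_ne_zero hc.ne' hne
    have hpos : 0 < ∫ x in (-L)..L, c * (star w ⬝ᵥ (Z x).mulVec w).re :=
      intervalIntegral.integral_pos (by linarith) hcont2.continuousOn (fun y _ => hnn y)
        ⟨x, hx, lt_of_le_of_ne (hnn x) (Ne.symm hne')⟩
    linarith
  exact hw (ker_zero q L hS0 hsupp hRint hRone w
    (fun x hx => mulVec_zero_of_quad_re (hZp x) w (hz x hx)))

end Vale.LT2.F
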