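import Vale.Agent.H1.LT2.SkelF
import Vale.Agent.H1.LT2.FBase
import Vale.Agent.H1.LT.Primal

/-!
Linear changes of the system of functions.
-/

open MeasureTheory Matrix Set Topology
open scoped ENNReal ComplexOrder

namespace Vale.LT2.F

open Vale.LT (trPow IsH1 IsPotential NegSystem LTconst Lone Rmat trFun)

variable {N m : ℕ}

/-- the `N × m` matrix with rows `u_j(x)` -/
noncomputable def Vm (u : Fin N → ℝ → Fin m → ℂ) (x : ℝ) : Matrix (Fin N) (Fin m) ℂ :=
  Matrix.of fun j i => u j x i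

/-- the Gram matrix `u_j · conj u_k` -/
noncomputable def Rm (u : Fin N → ℝ → Fin m → ℂ) (x : ℝ) : Mat N :=
  Matrix.of fun j k => u j x ⬝ᵥ star (u k x)

/-- the weighted Gram matrix `u_j · conj (W u_k)` -/
noncomputable def RW (W : ℝ → Matrix (Fin m) (Fin m) ℂ) (u : Fin N → ℝ → Fin m → ℂ) (x : ℝ) :
    Mat N :=
  Matrix.of fun j k => u j x ⬝ᵥ star ((W x).mulVec (u k x))

theorem Rm_eq (u : Fin N → ℝ → Fin m → ℂ) (x : ℝ) : Rm u x = Vm u x * (Vm u x)ᴴ := by
  ext j k
  simp [Rm, Vm, Matrix.mul_apply, dotProduct]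

theorem RW_eq (W : ℝ → Matrix (Fin m) (Fin m) ℂ) (u : Fin N → ℝ → Fin m → ℂ) (x : ℝ) :
    RW W u x = Vm u x * ((W x).map star) * (Vm u x)ᴴ := by
  ext j k
  simp only [RW, Vm, Matrix.mul_apply, dotProduct, Matrix.mulVec, Matrix.of_apply,
    Matrix.conjTranspose_apply, Matrix.map_apply, Pi.star_apply, star_sum, star_mul',
    Finset.mul_sum, Finset.sum_mul]
  rw [Finset.sum_comm]
  refine Finset.sum_congr rfl fun i _ => Finset.sum_congr rfl fun l _ => ?_
  ring

/-- linear combinations -/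
noncomputable def lin (T : Mat N) (u : Fin N → ℝ → Fin m → ℂ) : Fin N → ℝ → Fin m → ℂ :=
  fun j x i => ∑ k, T j k * u k x i

theorem Vm_lin (T : Mat N) (u : Fin N → ℝ → Fin m → ℂ) (x : ℝ) :
    Vm (lin T u) x = T * Vm u x := by
  ext j i
  simp [Vm, lin, Matrix.mul_apply]

theorem Rm_lin (T : Mat N) (u : Fin N → ℝ → Fin m → ℂ) (x : ℝ) :
    Rm (lin T u) x = T * Rm u x * Tᴴ := by
  rw [Rm_eq, Rm_eq, Vm_lin, Matrix.conjTranspose_mul]
  simp only [Matrix.mul_assoc]

theorem RW_lin (W : ℝ → Matrix (Fin m) (Fin m) ℂ) (T : Mat N) (u : Fin N → ℝ → Fin m → ℂ)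
    (x : ℝ) : RW W (lin T u) x = T * RW W u x * Tᴴ := by
  rw [RW_eq, RW_eq, Vm_lin, Matrix.conjTranspose_mul]
  simp only [Matrix.mul_assoc]

theorem Rm_posSemidef (u : Fin N → ℝ → Fin m → ℂ) (x : ℝ) : (Rm u x).PosSemidef := by
  rw [Rm_eq]
  exact Matrix.posSemidef_self_mul_conjTranspose _

theorem isH1_lin (T : Mat N) {u du : Fin N → ℝ → Fin m → ℂ} (hu : ∀ j, IsH1 (u j) (du j))
    (j : Fin N) : IsH1 (lin T u j) (lin T du j) where
  memLp i := by
    have : (fun x => lin T u j x i) = ∑ k, (fun x => T j k * u k x i) := by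
      funext x; simp [lin]
    rw [this]
    exact memLp_finsetSum' _ (fun k _ => ((hu k).memLp i).const_mul _)
  memLp_deriv i := by
    have : (fun x => lin T du j x i) = ∑ k, (fun x => T j k * du k x i) := by
      funext x; simp [lin]
    rw [this]
    exact memLp_finsetSum' _ (fun k _ => ((hu k).memLp_deriv i).const_mul _)
  ftc i a b := by
    simp only [lin]
    rw [intervalIntegral.integral_finsetSum]
    · rw [← Finset.sum_sub_distrib]
      refine Finset.sum_congr rfl fun k _ => ?_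
      rw [intervalIntegral.integral_const_mul, ← (hu k).ftc i a b]
      ring
    · intro k _
      exact (Vale.LT.Dual.h1_ii ((hu k).memLp_deriv i) a b).const_mul _

theorem tp_add_right (A B C : Mat N) : tp A (B + C) = tp A B + tp A C := by
  simp [tp, Matrix.mul_add]

theorem tp_sub_right (A B C : Mat N) : tp A (B - C) = tp A B - tp A C := by
  simp [tp, Matrix.mul_sub]

theorem tp_add_left (A B C : Mat N) : tp (A + B) C = tp A C + tp B C := by
  simp [tp, Matrix.add_mul]

theorem tp_comm (A B : Mat N) : tp A B = tp B A := by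
  simp [tp, Matrix.trace_mul_comm A B]

theorem tp_smul_left (c : ℝ) (A B : Mat N) : tp ((c : ℂ) • A) B = c * tp A B := by
  simp [tp]

theorem tp_smul_right (c : ℝ) (A B : Mat N) : tp A ((c : ℂ) • B) = c * tp A B := by
  simp [tp]

theorem tp_conj (A B T : Mat N) : tp A (T * B * Tᴴ) = tp (Tᴴ * A * T) B := by
  unfold tp
  rw [← Matrix.mul_assoc, ← Matrix.mul_assoc, Matrix.trace_mul_comm, ← Matrix.mul_assoc,
    ← Matrix.mul_assoc]

theorem tp_eq_sum (A B : Mat N) : tp A B = (∑ i, ∑ j, A i j * B j i).re := by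
  simp [tp, Matrix.trace, Matrix.mul_apply]

/-- `∫ tp A (F x) = tp A (∫ F)`. -/
theorem integral_tp (A : Mat N) (F : ℝ → Mat N) (hF : ∀ i j, Integrable (fun x => F x i j)) :
    Integrable (fun x => tp A (F x)) ∧
      ∫ x, tp A (F x) = tp A (Matrix.of fun i j => ∫ x, F x i j) := by
  have h1 : ∀ x, tp A (F x) = (∑ i, ∑ j, A i j * F x j i).re := fun x => tp_eq_sum _ _
  have h2 : Integrable (fun x => ∑ i, ∑ j, A i j * F x j i) :=
    integrable_finsetSum _ fun i _ => integrable_finsetSum _ fun j _ => (hF j i).const_mul _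
  refine ⟨?_, ?_⟩
  · simp only [h1]
    exact h2.re
  · simp only [h1]
    have h3 : ∫ x, (∑ i, ∑ j, A i j * F x j i).re = (∫ x, ∑ i, ∑ j, A i j * F x j i).re :=
      integral_re h2
    rw [h3, tp_eq_sum]
    congr 1
    have h4 : ∀ i : Fin N, Integrable (fun x => ∑ j, A i j * F x j i) := fun i =>
      integrable_finsetSum _ fun j _ => (hF j i).const_mul _
    rw [integral_finsetSum (f := fun i x => ∑ j, A i j * F x j i) _ fun i _ => h4 i]
    refine Finset.sum_congr rfl fun i _ => ?_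
    rw [integral_finsetSum (f := fun j x => A i j * F x j i) _ fun j _ => (hF j i).const_mul _]
    refine Finset.sum_congr rfl fun j _ => ?_
    rw [integral_const_mul]
    rfl

theorem integrable_Rm {u : Fin N → ℝ → Fin m → ℂ} (hu : ∀ j i, MemLp (fun x => u j x i) 2 volume)
    (j k : Fin N) : Integrable (fun x => Rm u x j k) := by
  have : (fun x => Rm u x j k) = fun x => ∑ i, u j x i * star (u k x i) := by
    funext x; simp [Rm, dotProduct]
  rw [this]
  exact integrable_finsetSum _ fun i _ => (hu j i).integrable_mul (hu k i).star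

end Vale.LT2.F
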