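import Vale.Agent.H1.LT2.FLin

/-!
Powers of matrices, Young's inequality.
-/

open MeasureTheory Matrix Set Topology
open scoped ENNReal ComplexOrder

namespace Vale.LT2.F

open Vale.LT (trPow IsH1 IsPotential NegSystem LTconst Lone Rmat trFun)

variable {N m : ℕ}

theorem cfc_isHermitian (f : ℝ → ℝ) (A : Mat N) : (cfc f A).IsHermitian :=
  (cfc_predicate f A : IsSelfAdjoint (cfc f A))

theorem cont_spec (f : ℝ → ℝ) (A : Mat N) : ContinuousOn f (spectrum ℝ A) := by
  have : (spectrum ℝ A).Finite := Matrix.finite_real_spectrum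
  exact this.continuousOn f

/-- spectrum of `cfc f A` -/
theorem cfc_posSemidef (f : ℝ → ℝ) (A : Mat N) (hA : A.IsHermitian)
    (hf : ∀ t ∈ spectrum ℝ A, 0 ≤ f t) : (cfc f A).PosSemidef := by
  have hA' : IsSelfAdjoint A := hA
  rw [(cfc_isHermitian f A).posSemidef_iff_eigenvalues_nonneg]
  intro i
  have h1 : (cfc_isHermitian f A).eigenvalues i ∈ spectrum ℝ (cfc f A) :=
    (cfc_isHermitian f A).eigenvalues_mem_spectrum_real i
  rw [cfc_map_spectrum f A hA' (cont_spec f A)] at h1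
  obtain ⟨t, ht, h2⟩ := h1
  show 0 ≤ _
  rw [← h2]
  exact hf t ht

theorem cfc_posDef (f : ℝ → ℝ) (A : Mat N) (hA : A.IsHermitian)
    (hf : ∀ t ∈ spectrum ℝ A, 0 < f t) : (cfc f A).PosDef := by
  have hA' : IsSelfAdjoint A := hA
  rw [(cfc_isHermitian f A).posDef_iff_eigenvalues_pos]
  intro i
  have h1 : (cfc_isHermitian f A).eigenvalues i ∈ spectrum ℝ (cfc f A) :=
    (cfc_isHermitian f A).eigenvalues_mem_spectrum_real i
  rw [cfc_map_spectrum f A hA' (cont_spec f A)] at h1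
  obtain ⟨t, ht, h2⟩ := h1
  rw [← h2]
  exact hf t ht

/-- (e1) -/
theorem tp_cfc_pow_self (s : ℝ) (hs : 0 < s) (P : Mat N) (hP : P.PosSemidef) :
    tp (cfc (fun t : ℝ => t ^ s) P) P = trPow (s + 1) P := by
  have hP' : IsSelfAdjoint P := hP.isHermitian
  rw [trPow_eq_cfc _ _ hP.isHermitian]
  unfold tp
  congr 2
  have h2 : cfc (fun t : ℝ => t ^ s) P * P
      = cfc (fun t : ℝ => t ^ s) P * cfc (fun t : ℝ => t) P := by
    rw [cfc_id' ℝ P hP']
  rw [h2, ← cfc_mul (fun t : ℝ => t ^ s) (fun t : ℝ => t) P (cont_spec _ _) (cont_spec _ _)]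
  refine cfc_congr (fun t ht => ?_)
  have ht0 := spectrum_nonneg_of_posSemidef hP t ht
  show t ^ s * t = t ^ (s + 1)
  rcases ht0.eq_or_lt with h | h
  · rw [← h, Real.zero_rpow hs.ne', Real.zero_rpow (by linarith), zero_mul]
  · rw [Real.rpow_add h, Real.rpow_one]

/-- (e2) -/
theorem trPow_cfc_pow (s r : ℝ) (P : Mat N) (hP : P.PosSemidef) :
    trPow r (cfc (fun t : ℝ => t ^ s) P) = trPow (s * r) P := by
  have hP' : IsSelfAdjoint P := hP.isHermitian
  rw [trPow_eq_cfc _ _ (cfc_isHermitian _ _), trPow_eq_cfc _ _ hP.isHermitian]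
  congr 2
  have h1 := cfc_comp' (fun t : ℝ => t ^ r) (fun t : ℝ => t ^ s) P
    (by rw [← cfc_map_spectrum (fun t : ℝ => t ^ s) P hP' (cont_spec _ _)]
        exact cont_spec _ _) (cont_spec _ _) hP'
  rw [← h1]
  refine cfc_congr (fun t ht => ?_)
  have ht0 := spectrum_nonneg_of_posSemidef hP t ht
  show (t ^ s) ^ r = t ^ (s * r)
  rw [Real.rpow_mul ht0]

/-- square root -/
theorem sqrt_mul_self (S : Mat N) (hS : S.PosSemidef) :
    cfc Real.sqrt S * cfc Real.sqrt S = S := by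
  rw [← cfc_mul Real.sqrt Real.sqrt S (cont_spec _ _) (cont_spec _ _)]
  have hS' : IsSelfAdjoint S := hS.isHermitian
  conv_rhs => rw [← cfc_id' ℝ S hS']
  refine cfc_congr (fun t ht => ?_)
  exact Real.mul_self_sqrt (spectrum_nonneg_of_posSemidef hS t ht)

/-- the sharp constant in Young's inequality -/
noncomputable def aY (α : ℝ) : ℝ := (1 / α) * (1 + 1 / α) ^ (-(1 + α))

theorem young_scalar (α : ℝ) (h0 : 0 < α) (x y : ℝ) (hx : 0 ≤ x) (hy : 0 ≤ y) :
    x * y ≤ aY α * x ^ (1 + α) + y ^ (1 / α + 1) := by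
  set q : ℝ := 1 / α with hq
  have hq0 : 0 < q := by positivity
  have hqa : q * α = 1 := by rw [hq]; field_simp
  set c : ℝ := (q + 1) ^ (1 / (q + 1)) with hc
  have hc0 : 0 < c := by positivity
  have hpq : (1 + α).HolderConjugate (q + 1) := by
    rw [Real.holderConjugate_iff]
    refine ⟨by linarith, ?_⟩
    have h1 : (1 + α) ≠ 0 := by positivity
    have h2 : (q + 1) ≠ 0 := by positivity
    rw [inv_eq_one_div, inv_eq_one_div]
    field_simp
    nlinarith
  have h1 := Real.young_inequality_of_nonneg (a := x / c) (b := c * y)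
    (div_nonneg hx hc0.le) (mul_nonneg hc0.le hy) hpq
  have h2 : x / c * (c * y) = x * y := by field_simp
  have h3 : (c * y) ^ (q + 1) / (q + 1) = y ^ (q + 1) := by
    rw [Real.mul_rpow hc0.le hy, hc, ← Real.rpow_mul (by positivity)]
    have : 1 / (q + 1) * (q + 1) = 1 := by field_simp
    rw [this, Real.rpow_one]
    field_simp
  have h4 : (x / c) ^ (1 + α) / (1 + α) = aY α * x ^ (1 + α) := by
    rw [Real.div_rpow hx hc0.le, hc, ← Real.rpow_mul (by positivity)]
    have e1 : 1 / (q + 1) * (1 + α) = α := by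
      have : (q + 1) ≠ 0 := by positivity
      field_simp
      nlinarith
    rw [e1]
    unfold aY
    have f1 : (0 : ℝ) < q + 1 := by positivity
    have f2 : (0 : ℝ) < 1 + α := by positivity
    have e5 : q * (1 + α) = q + 1 := by nlinarith
    have e6 : (1 + 1 / α) ^ (-(1 + α)) = ((q + 1) ^ α)⁻¹ * (q + 1)⁻¹ := by
      rw [← hq, add_comm 1 q, Real.rpow_neg f1.le, add_comm 1 α, Real.rpow_add f1, Real.rpow_one,
        mul_inv]
    have e7 : (1 / α) * (q + 1)⁻¹ = (1 + α)⁻¹ := by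
      rw [← hq, ← e5, mul_inv, ← mul_assoc, mul_inv_cancel₀ hq0.ne', one_mul]
    calc x ^ (1 + α) / (q + 1) ^ α / (1 + α)
        = ((1 + α)⁻¹) * ((q + 1) ^ α)⁻¹ * x ^ (1 + α) := by
          rw [div_eq_mul_inv, div_eq_mul_inv]; ring
      _ = 1 / α * (1 + 1 / α) ^ (-(1 + α)) * x ^ (1 + α) := by
          rw [e6, ← e7]; ring
  rw [h2, h3, h4] at h1
  exact h1

end Vale.LT2.F
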