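import Vale.Agent.H1.LT2.FCont

/-!
The potential term.
-/

open MeasureTheory Matrix Set Topology
open scoped ENNReal ComplexOrder

namespace Vale.LT2.F

open Vale.LT (trPow IsH1 IsPotential NegSystem LTconst Lone Rmat trFun)

variable {N m : ℕ}

theorem tp_one_RW (W : ℝ → Matrix (Fin m) (Fin m) ℂ) (v : Fin N → ℝ → Fin m → ℂ) (x : ℝ) :
    tp 1 (RW W v x) = ((W x * Rmat v x).trace).re := by
  rw [Vale.LT.trace_mul_Rmat]
  simp only [tp, one_mul, Matrix.trace, Matrix.diag, RW, Matrix.of_apply, Complex.re_sum]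
  refine Finset.sum_congr rfl fun j _ => ?_
  have h1 : v j x ⬝ᵥ star ((W x).mulVec (v j x)) = star (star (v j x) ⬝ᵥ (W x).mulVec (v j x)) := by
    simp only [dotProduct, star_sum, Pi.star_apply, star_mul', star_star]
  rw [h1]
  simp

theorem trPow_Rmat (v : Fin N → ℝ → Fin m → ℂ) (x : ℝ) (s : ℝ) (hs : 0 < s) :
    trPow s (Rmat v x) = trPow s (Rm v x) := by
  have h1 : Rmat v x = (Vm v x)ᵀ * ((Vm v x)ᵀ)ᴴ := by
    ext i l
    simp [Rmat, Vm, Matrix.mul_apply, Matrix.sum_apply, Matrix.vecMulVec_apply]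
  have h2 : ((Vm v x)ᵀ)ᴴ * (Vm v x)ᵀ = (Rm v x)ᵀ := by
    ext j k
    simp only [Matrix.mul_apply, Matrix.conjTranspose_apply, Matrix.transpose_apply, Vm, Rm,
      Matrix.of_apply, dotProduct, Pi.star_apply]
    refine Finset.sum_congr rfl fun i _ => ?_
    ring
  rw [h1, trPow_mul_comm _ s hs, h2, trPow_transpose _ (Rm_posSemidef v x).isHermitian]

theorem young_point (α : ℝ) (h0 : 0 < α) (W : ℝ → Matrix (Fin m) (Fin m) ℂ)
    (hW : ∀ x, (W x).PosSemidef) (v : Fin N → ℝ → Fin m → ℂ) (x : ℝ) :
    tp 1 (RW W v x) ≤ aY α * trPow (1 + α) (W x) + trPow (1 / α + 1) (Rm v x) := by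
  rw [tp_one_RW, ← trPow_Rmat v x _ (by positivity)]
  have h1 := Vale.LT.trace_young (W x) (Rmat v x) (hW x) (Vale.LT.Rmat_posSemidef v x)
    (fun t => aY α * t ^ (1 + α)) (fun t => t ^ (1 / α + 1))
    (fun a b ha hb => young_scalar α h0 a b ha hb)
  refine h1.trans (le_of_eq ?_)
  congr 1
  rw [Vale.LT.trFun_of_isHermitian _ (hW x).isHermitian, Vale.LT.trPow_eq_trFun,
    Vale.LT.trFun_of_isHermitian _ (hW x).isHermitian, Finset.mul_sum]

theorem integrable_RW (α : ℝ) (h0 : 0 < α) (W : ℝ → Matrix (Fin m) (Fin m) ℂ)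
    (hW : IsPotential (1 + α) W) {u du : Fin N → ℝ → Fin m → ℂ} (hu : ∀ j, IsH1 (u j) (du j))
    (j k : Fin N) : Integrable (fun x => RW W u x j k) := by
  -- polarisation: `4 ⟨a, W b⟩ = ∑ c ⟨a + c b, W (a + c b)⟩`
  have hd : ∀ c : ℂ, Integrable (fun x => star (fun i => u j x i + c * u k x i) ⬝ᵥ
      (W x).mulVec (fun i => u j x i + c * u k x i)) := by
    intro c
    have hH : IsH1 (fun x i => u j x i + c * u k x i) (fun x i => du j x i + c * du k x i) :=
      { memLp := fun i => ((hu j).memLp i).add (((hu k).memLp i).const_mul c)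
        memLp_deriv := fun i => ((hu j).memLp_deriv i).add (((hu k).memLp_deriv i).const_mul c)
        ftc := fun i a b => by
          rw [intervalIntegral.integral_add (Vale.LT.Dual.h1_ii ((hu j).memLp_deriv i) a b)
            ((Vale.LT.Dual.h1_ii ((hu k).memLp_deriv i) a b).const_mul c),
            intervalIntegral.integral_const_mul, ← (hu j).ftc i a b, ← (hu k).ftc i a b]
          ring }
    exact Vale.LT.integrable_pot (1 + α) (by linarith) W hW hH
  have key : ∀ x, RW W u x j k = (1 / 4) * (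
      (star (fun i => u j x i + 1 * u k x i) ⬝ᵥ (W x).mulVec (fun i => u j x i + 1 * u k x i))
      - (star (fun i => u j x i + (-1) * u k x i) ⬝ᵥ
          (W x).mulVec (fun i => u j x i + (-1) * u k x i))
      + Complex.I * (star (fun i => u j x i + Complex.I * u k x i) ⬝ᵥ
          (W x).mulVec (fun i => u j x i + Complex.I * u k x i))
      - Complex.I * (star (fun i => u j x i + (-Complex.I) * u k x i) ⬝ᵥ
          (W x).mulVec (fun i => u j x i + (-Complex.I) * u k x i))) := by
    intro x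
    have hherm : ∀ a b : Fin m → ℂ, a ⬝ᵥ star ((W x).mulVec b) = star b ⬝ᵥ (W x).mulVec a := by
      intro a b
      have hH := (hW.posSemidef x).isHermitian
      have : star ((W x).mulVec b) = star b ᵥ* (W x) := by
        rw [Matrix.star_mulVec, hH.eq]
      rw [this, dotProduct_comm, ← Matrix.dotProduct_mulVec]
    show u j x ⬝ᵥ star ((W x).mulVec (u k x)) = _
    rw [hherm]
    have e1 : ∀ c : ℂ, (star (fun i => u j x i + c * u k x i) ⬝ᵥ
        (W x).mulVec (fun i => u j x i + c * u k x i))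
        = star (u j x) ⬝ᵥ (W x).mulVec (u j x) + c * (star (u j x) ⬝ᵥ (W x).mulVec (u k x))
          + star c * (star (u k x) ⬝ᵥ (W x).mulVec (u j x))
          + star c * c * (star (u k x) ⬝ᵥ (W x).mulVec (u k x)) := by
      intro c
      have f1 : (fun i => u j x i + c * u k x i) = u j x + c • u k x := by
        funext i; simp
      rw [f1, star_add, star_smul, Matrix.mulVec_add, Matrix.mulVec_smul, add_dotProduct,
        dotProduct_add, dotProduct_add, smul_dotProduct, smul_dotProduct, dotProduct_smul,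
        dotProduct_smul]
      simp only [smul_eq_mul]
      ring
    rw [e1, e1, e1, e1]
    simp only [star_one, star_neg, RCLike.star_def, Complex.conj_I]
    ring_nf
    simp only [Complex.I_sq]
    ring
  simp only [key]
  exact ((((hd 1).sub (hd (-1))).add ((hd Complex.I).const_mul _)).sub
    ((hd (-Complex.I)).const_mul _)).const_mul _

end Vale.LT2.F
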