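import Vale.Agent.H1.LT2.Skel
import Vale.Agent.H17.LT2FC
import Vale.Agent.H25.LT2F3

/-!
The inequality for compactly supported systems, and the passage to eigenfunctions.
-/

open MeasureTheory Matrix Set
open scoped ENNReal ComplexOrder

namespace Vale.LT2

open Vale.LT (trPow IsH1 IsPotential NegSystem LTconst Lone)

/-- The Lieb-Thirring inequality for orthonormal systems of compactly supported `H¹` functions. -/
def CompactLT (γ : ℝ) : Prop :=
  ∀ (N m : ℕ) (W : ℝ → Matrix (Fin m) (Fin m) ℂ), IsPotential (γ + 1 / 2) W →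
    ∀ (u du : Fin N → ℝ → Fin m → ℂ), (∀ j, IsH1 (u j) (du j)) →
    ∀ L : ℝ, 0 < L → (∀ j x, L ≤ |x| → u j x = 0) →
    (∀ j k, (∫ x, u j x ⬝ᵥ star (u k x)) = if j = k then 1 else 0) →
    (Matrix.of fun j k => (∫ x, u j x ⬝ᵥ star ((W x).mulVec (u k x)))
      - ∫ x, du j x ⬝ᵥ star (du k x) : Mat N).PosDef →
    trPow γ (Matrix.of fun j k => (∫ x, u j x ⬝ᵥ star ((W x).mulVec (u k x)))
      - ∫ x, du j x ⬝ᵥ star (du k x) : Mat N) ≤ Lone γ * ∫ x, trPow (γ + 1 / 2) (W x)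

/-! ### Row F3: from compactly supported systems to eigenfunctions -/
theorem system_of_compact (γ : ℝ) (h1 : 1 / 2 < γ) (h2 : γ < 3 / 2) (hc : CompactLT γ)
    {m n : ℕ} (W : ℝ → Matrix (Fin m) (Fin m) ℂ) (hW : IsPotential (γ + 1 / 2) W)
    (S : NegSystem W n) :
    ∑ j, |S.lam j| ^ γ ≤ Lone γ * ∫ x, trPow (γ + 1 / 2) (W x) :=
  system_of_compact' γ h1 h2 hc W hW S

end Vale.LT2
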